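import Mathlib

/-! P254, (SP_0) line, SP-L2 part 1 (helper731): a function whose cosine and sine transforms vanish is
zero almost everywhere (finite measure on a Euclidean space). -/

set_option autoImplicit false
set_option linter.unusedSectionVars false

open MeasureTheory
open scoped Topology ENNReal

namespace Vale.Agent.P254.H731

variable {E : Type*} [NormedAddCommGroup E] [InnerProductSpace ℝ E] [MeasurableSpace E]
  [BorelSpace E] [FiniteDimensional ℝ E]

theorem charFun_pos (μ : Measure E) {f : E → ℝ} (hm : AEMeasurable f μ) (ξ : E) :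
    charFun (μ.withDensity fun x => ENNReal.ofReal (f x)) ξ =
      ∫ x, ((max (f x) 0 : ℝ) : ℂ) * Complex.exp (((inner ℝ x ξ : ℝ) : ℂ) * Complex.I) ∂μ := by
  rw [charFun_apply, integral_withDensity_eq_integral_toReal_smul₀ hm.ennreal_ofReal
    (ae_of_all _ fun _ => ENNReal.ofReal_lt_top)]
  refine integral_congr_ae (ae_of_all _ fun x => ?_)
  simp only
  rw [ENNReal.toReal_ofReal', Complex.real_smul]

theorem ae_zero_of_cos_sin {μ : Measure E} [IsFiniteMeasure μ] {f : E → ℝ} (hf : Integrable f μ)
    (hc : ∀ ξ : E, ∫ x, f x * Real.cos (inner ℝ x ξ) ∂μ = 0)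
    (hs : ∀ ξ : E, ∫ x, f x * Real.sin (inner ℝ x ξ) ∂μ = 0) : f =ᵐ[μ] 0 := by
  have hm : AEMeasurable f μ := hf.aemeasurable
  have hm' : AEMeasurable (fun x => -f x) μ := hf.aemeasurable.neg
  have hi1 : Integrable (fun x => max (f x) 0) μ := hf.pos_part
  have hi2 : Integrable (fun x => max (-f x) 0) μ := hf.neg.pos_part
  have : IsFiniteMeasure (μ.withDensity fun x => ENNReal.ofReal (f x)) :=
    isFiniteMeasure_withDensity_ofReal hf.2
  have : IsFiniteMeasure (μ.withDensity fun x => ENNReal.ofReal (-f x)) :=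
    isFiniteMeasure_withDensity_ofReal hf.neg.2
  have hcs : ∀ ξ : E, Integrable (fun x => f x * Real.cos (inner ℝ x ξ)) μ := fun ξ =>
    (hf.bdd_mul (c := 1) (by fun_prop) (ae_of_all _ fun x => by
      rw [Real.norm_eq_abs]; exact Real.abs_cos_le_one _)).congr (ae_of_all _ fun x => mul_comm _ _)
  have hsn : ∀ ξ : E, Integrable (fun x => f x * Real.sin (inner ℝ x ξ)) μ := fun ξ =>
    (hf.bdd_mul (c := 1) (by fun_prop) (ae_of_all _ fun x => by
      rw [Real.norm_eq_abs]; exact Real.abs_sin_le_one _)).congr (ae_of_all _ fun x => mul_comm _ _)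
  have key : (μ.withDensity fun x => ENNReal.ofReal (f x)) =
      μ.withDensity fun x => ENNReal.ofReal (-f x) := by
    refine Measure.ext_of_charFun (funext fun ξ => ?_)
    rw [charFun_pos μ hm, charFun_pos μ hm', ← sub_eq_zero, ← integral_sub]
    · have e : ∀ x : E, ((max (f x) 0 : ℝ) : ℂ) * Complex.exp (((inner ℝ x ξ : ℝ) : ℂ) * Complex.I)
          - ((max (-f x) 0 : ℝ) : ℂ) * Complex.exp (((inner ℝ x ξ : ℝ) : ℂ) * Complex.I)
          = ((f x * Real.cos (inner ℝ x ξ) : ℝ) : ℂ)
            + ((f x * Real.sin (inner ℝ x ξ) : ℝ) : ℂ) * Complex.I := by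
        intro x
        rw [Complex.exp_mul_I, ← sub_mul, ← Complex.ofReal_sub]
        have : max (f x) 0 - max (-f x) 0 = f x := by
          rcases le_total 0 (f x) with h | h
          · rw [max_eq_left h, max_eq_right (by linarith)]; ring
          · rw [max_eq_right h, max_eq_left (by linarith)]; ring
        rw [this]
        push_cast
        ring
      calc ∫ x, (((max (f x) 0 : ℝ) : ℂ) * Complex.exp (((inner ℝ x ξ : ℝ) : ℂ) * Complex.I)
          - ((max (-f x) 0 : ℝ) : ℂ) * Complex.exp (((inner ℝ x ξ : ℝ) : ℂ) * Complex.I)) ∂μ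
          = ∫ x, (((f x * Real.cos (inner ℝ x ξ) : ℝ) : ℂ)
            + ((f x * Real.sin (inner ℝ x ξ) : ℝ) : ℂ) * Complex.I) ∂μ :=
            integral_congr_ae (ae_of_all _ e)
        _ = 0 := by
            rw [integral_add (hcs ξ).ofReal ((hsn ξ).ofReal.mul_const _), integral_mul_const]
            have h1 := integral_ofReal (𝕜 := ℂ) (μ := μ) (f := fun x => f x * Real.cos (inner ℝ x ξ))
            have h2 := integral_ofReal (𝕜 := ℂ) (μ := μ) (f := fun x => f x * Real.sin (inner ℝ x ξ))
            erw [h1, h2, hc, hs]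
            simp
    · refine (hi1.ofReal.bdd_mul (c := 1) (by fun_prop) (ae_of_all _ fun x => ?_)).congr
        (ae_of_all _ fun x => mul_comm _ _)
      rw [Complex.norm_exp_ofReal_mul_I]
    · refine (hi2.ofReal.bdd_mul (c := 1) (by fun_prop) (ae_of_all _ fun x => ?_)).congr
        (ae_of_all _ fun x => mul_comm _ _)
      rw [Complex.norm_exp_ofReal_mul_I]
  have h2 := (withDensity_eq_iff hm.ennreal_ofReal hm'.ennreal_ofReal (by
    have := hf.2
    exact (lintegral_ofReal_le_lintegral_enorm f).trans_lt this |>.ne)).1 key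
  filter_upwards [h2] with x hx
  rcases lt_trichotomy (f x) 0 with h | h | h
  · have : ENNReal.ofReal (f x) = 0 := ENNReal.ofReal_eq_zero.2 h.le
    rw [this] at hx
    have := ENNReal.ofReal_eq_zero.1 hx.symm
    exact absurd this (by simp; exact h)
  · simpa using h
  · have : ENNReal.ofReal (-f x) = 0 := ENNReal.ofReal_eq_zero.2 (by linarith)
    rw [this] at hx
    have := ENNReal.ofReal_eq_zero.1 hx
    linarith

end Vale.Agent.P254.H731
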