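import Vale.Agent.P254.S.H151.Gau
import Vale.Agent.P254.H731.CharZ

/-! P254, (SP_0) line, row SP-L2 (helper731): `L²` theory of the Ornstein-Uhlenbeck operator
`N v = ⟨x, ∇v⟩ - Δv` on the standard Gaussian, test class `TT` (smooth, all derivatives bounded;
contains the trigonometric functions).

* `ibp` Gaussian integration by parts (polynomial growth),
* `Ex_mul_NO` `E f Nv = E ⟨∇f, ∇v⟩`, `Ex_NO_sq` `E (Nv)² = E |∇v|² + E |D²v|²`,
* `exists_near` density: every `f ∈ L²` of mean `0` is an `L²` limit of `Nv`, `v ∈ TT`. -/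

set_option autoImplicit false
set_option linter.unusedSectionVars false

open MeasureTheory Vale.Agent.P227.M Vale.Agent.P254.S
open scoped Topology ENNReal

namespace Vale.Agent.P254.H731

open S151

variable {n : ℕ}

/-- Ornstein-Uhlenbeck operator `N = -Δ + ⟨x, ∇⟩` -/
noncomputable def NO (v : E n → ℝ) (x : E n) : ℝ := (∑ i, x i * pd i v x) - ∑ i, pd i (pd i v) x

/-- test functions: analytic with all derivatives bounded -/
structure TT (v : E n → ℝ) : Prop where
  smooth : ContDiff ℝ ⊤ v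
  bdd : ∀ m : ℕ, ∃ B : ℝ, ∀ x, ‖iteratedFDeriv ℝ m v x‖ ≤ B

theorem TT.cont {v : E n → ℝ} (h : TT v) : Continuous v := h.smooth.continuous

theorem TT.diff {v : E n → ℝ} (h : TT v) : Differentiable ℝ v :=
  h.smooth.differentiable (by simp)

theorem TT.bound {v : E n → ℝ} (h : TT v) : ∃ B, ∀ x, |v x| ≤ B := by
  obtain ⟨B, hB⟩ := h.bdd 0
  exact ⟨B, fun x => by simpa [norm_iteratedFDeriv_zero] using hB x⟩

theorem TT.gr {v : E n → ℝ} (h : TT v) : Gr v := by
  obtain ⟨B, hB⟩ := h.bound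
  exact Gr.of_bound h.cont hB

theorem TT.der {v : E n → ℝ} (h : TT v) (i : Fin n) : TT (pd i v) := by
  refine ⟨contDiff_pd h.smooth (by simp) i, fun m => ?_⟩
  obtain ⟨B, hB⟩ := h.bdd (m + 1)
  refine ⟨‖(ContinuousLinearMap.apply ℝ ℝ (ei i : E n))‖ * B, fun x => ?_⟩
  have e : pd i v = (ContinuousLinearMap.apply ℝ ℝ (ei i : E n)) ∘ (fderiv ℝ v) := rfl
  have hs : ContDiff ℝ ⊤ (fderiv ℝ v) := h.smooth.fderiv_right (by simp)
  rw [e]
  refine (ContinuousLinearMap.norm_iteratedFDeriv_comp_left _ hs.contDiffAt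
    le_top).trans ?_
  rw [norm_iteratedFDeriv_fderiv]
  exact mul_le_mul_of_nonneg_left (hB x) (norm_nonneg _)

theorem TT.add {v w : E n → ℝ} (hv : TT v) (hw : TT w) : TT (fun x => v x + w x) := by
  refine ⟨hv.smooth.add hw.smooth, fun m => ?_⟩
  obtain ⟨B, hB⟩ := hv.bdd m
  obtain ⟨C, hC⟩ := hw.bdd m
  refine ⟨B + C, fun x => ?_⟩
  have e : (fun x => v x + w x) = v + w := rfl
  rw [e, iteratedFDeriv_add_apply (hv.smooth.of_le le_top).contDiffAt
    (hw.smooth.of_le le_top).contDiffAt]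
  exact (norm_add_le _ _).trans (add_le_add (hB x) (hC x))

theorem TT.smul {v : E n → ℝ} (hv : TT v) (c : ℝ) : TT (fun x => c * v x) := by
  refine ⟨contDiff_const.mul hv.smooth, fun m => ?_⟩
  obtain ⟨B, hB⟩ := hv.bdd m
  refine ⟨|c| * B, fun x => ?_⟩
  have e : (fun x => c * v x) = c • v := rfl
  rw [e, iteratedFDeriv_const_smul_apply (hv.smooth.of_le le_top).contDiffAt,
    norm_smul, Real.norm_eq_abs]
  exact mul_le_mul_of_nonneg_left (hB x) (abs_nonneg _)

theorem TT.zero : TT (fun _ : E n => (0 : ℝ)) := by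
  refine ⟨contDiff_const, fun m => ⟨0, fun x => ?_⟩⟩
  have : iteratedFDeriv ℝ m (fun _ : E n => (0 : ℝ)) x = 0 := by
    have := iteratedFDeriv_fun_zero (𝕜 := ℝ) (E := E n) (F := ℝ) (n := m)
    exact congrFun this x
  rw [this]
  simp

/-! ### integration by parts -/

theorem hasFDerivAt_Q (x : E n) :
    HasFDerivAt (fun x : E n => Real.exp (-Q x)) (Real.exp (-Q x) • (-(innerSL ℝ x))) x := by
  have h1 : HasFDerivAt (fun x : E n => ‖x‖ ^ 2) (2 • (innerSL ℝ x)) x :=
    (hasStrictFDerivAt_norm_sq x).hasFDerivAt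
  have h2 : HasFDerivAt (fun x : E n => -Q x) (-(innerSL ℝ x)) x := by
    have h3 := (h1.const_mul (1 / 2 : ℝ)).neg
    refine (h3.congr_fderiv ?_).congr_of_eventuallyEq (Filter.Eventually.of_forall fun y => ?_)
    · ext v
      simp
    · simp only [Q, Pi.neg_apply]
      ring
  exact h2.exp

theorem pd_mul_expQ {g : E n → ℝ} {x : E n} (hg : DifferentiableAt ℝ g x) (i : Fin n) :
    pd i (fun y => g y * Real.exp (-Q y)) x = (pd i g x - x i * g x) * Real.exp (-Q x) := by
  have h : HasFDerivAt (fun y => g y * Real.exp (-Q y)) _ x :=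
    hg.hasFDerivAt.mul (hasFDerivAt_Q x)
  unfold pd
  rw [h.fderiv]
  simp only [ContinuousLinearMap.add_apply, ContinuousLinearMap.smul_apply, smul_eq_mul,
    ContinuousLinearMap.neg_apply, innerSL_apply_apply]
  have : inner ℝ x (ei i) = x i := by
    simp [ei, EuclideanSpace.inner_single_right]
  rw [this]
  ring

/-- Gaussian integration by parts, polynomial growth -/
theorem ibp {f g : E n → ℝ} (i : Fin n) (hf : Differentiable ℝ f) (hg : Differentiable ℝ g)
    (gf : Gr f) (gf' : Gr (pd i f)) (gg : Gr g) (gg' : Gr (pd i g)) :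
    Ex Q (fun x => pd i f x * g x) = Ex Q (fun x => f x * (x i * g x - pd i g x)) := by
  have he : Differentiable ℝ fun x : E n => Real.exp (-Q x) := fun x =>
    (hasFDerivAt_Q x).differentiableAt
  have hG : Differentiable ℝ fun x => g x * Real.exp (-Q x) := hg.mul he
  have i1 : Integrable fun x => fderiv ℝ f x (ei i) * (g x * Real.exp (-Q x)) := by
    refine (regQ.integrable_gr (gf'.mul gg)).congr (Filter.Eventually.of_forall fun x => ?_)
    simp only [pd]
    ring
  have i2 : Integrable fun x => f x * fderiv ℝ (fun x => g x * Real.exp (-Q x)) x (ei i) := by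
    have h := regQ.integrable_gr (n := n) (gf.mul (gg'.sub ((Gr.coord i).mul gg)))
    refine h.congr (Filter.Eventually.of_forall fun x => ?_)
    have := pd_mul_expQ (hg x) i
    unfold pd at this
    simp only
    rw [this]
    simp only [pd]
    ring
  have i3 : Integrable fun x => f x * (g x * Real.exp (-Q x)) := by
    refine (regQ.integrable_gr (gf.mul gg)).congr (Filter.Eventually.of_forall fun x => ?_)
    simp only
    ring
  have key := integral_mul_fderiv_eq_neg_fderiv_mul_of_integrable (μ := (volume : Measure (E n)))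
    (f := f) (g := fun x => g x * Real.exp (-Q x)) (v := ei i) i1 i2 i3 (fun x _ => hf x)
    (fun x _ => hG x)
  unfold Ex
  congr 1
  have e1 : ∫ x, pd i f x * g x * Real.exp (-Q x) =
      ∫ x, fderiv ℝ f x (ei i) * (g x * Real.exp (-Q x)) :=
    integral_congr_ae (Filter.Eventually.of_forall fun x => by simp only [pd]; ring)
  have e2 : ∫ x, f x * (x i * g x - pd i g x) * Real.exp (-Q x) =
      - ∫ x, f x * fderiv ℝ (fun x => g x * Real.exp (-Q x)) x (ei i) := by
    rw [← integral_neg]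
    refine integral_congr_ae (Filter.Eventually.of_forall fun x => ?_)
    have := pd_mul_expQ (hg x) i
    unfold pd at this
    simp only
    rw [this]
    simp only [pd]
    ring
  rw [e1, e2, key, neg_neg]

theorem Ex_add {f g : E n → ℝ} (hf : Gr f) (hg : Gr g) :
    Ex Q (fun x => f x + g x) = Ex Q f + Ex Q g := by
  rw [Ex_eq, Ex_eq, Ex_eq]
  exact integral_add (integrable_gm (regQ.integrable_gr hf)) (integrable_gm (regQ.integrable_gr hg))

theorem Ex_sub {f g : E n → ℝ} (hf : Gr f) (hg : Gr g) :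
    Ex Q (fun x => f x - g x) = Ex Q f - Ex Q g := by
  rw [Ex_eq, Ex_eq, Ex_eq]
  exact integral_sub (integrable_gm (regQ.integrable_gr hf)) (integrable_gm (regQ.integrable_gr hg))

theorem Ex_sum {ι : Type*} (s : Finset ι) {f : ι → E n → ℝ} (hf : ∀ i ∈ s, Gr (f i)) :
    Ex Q (fun x => ∑ i ∈ s, f i x) = ∑ i ∈ s, Ex Q (f i) := by
  simp only [Ex_eq]
  exact integral_finsetSum s fun i hi => integrable_gm (regQ.integrable_gr (hf i hi))

theorem Ex_const_mul (c : ℝ) (f : E n → ℝ) : Ex Q (fun x => c * f x) = c * Ex Q f := by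
  rw [Ex_eq, Ex_eq]
  exact integral_const_mul c f

theorem TT.gr_NO {v : E n → ℝ} (h : TT v) : Gr (NO v) := by
  unfold NO
  exact (Gr.sum _ fun i _ => (Gr.coord i).mul (h.der i).gr).sub
    (Gr.sum _ fun i _ => ((h.der i).der i).gr)

/-- `E f Nv = E ⟨∇f, ∇v⟩` -/
theorem Ex_mul_NO {f v : E n → ℝ} (hf : Differentiable ℝ f) (gf : Gr f)
    (gf' : ∀ i, Gr (pd i f)) (hv : TT v) :
    Ex Q (fun x => f x * NO v x) = Ex Q (fun x => ∑ i, pd i f x * pd i v x) := by
  have h1 : ∀ i : Fin n, Ex Q (fun x => pd i f x * pd i v x) =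
      Ex Q (fun x => f x * (x i * pd i v x - pd i (pd i v) x)) := fun i =>
    ibp i hf (hv.der i).diff gf (gf' i) (hv.der i).gr ((hv.der i).der i).gr
  rw [Ex_sum _ fun i _ => (gf' i).mul (hv.der i).gr, Finset.sum_congr rfl fun i _ => h1 i,
    ← Ex_sum _ fun i _ => gf.mul (((Gr.coord i).mul (hv.der i).gr).sub ((hv.der i).der i).gr)]
  congr 1
  funext x
  unfold NO
  rw [← Finset.mul_sum, Finset.sum_sub_distrib]

theorem pd_comm {v : E n → ℝ} (hv : TT v) (i j : Fin n) (x : E n) :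
    pd i (pd j v) x = pd j (pd i v) x :=
  Vale.Agent.P227.M.hess_symm (hv.smooth.of_le le_top) x i j

theorem NO_diff {v : E n → ℝ} (hv : TT v) : Differentiable ℝ (NO v) := by
  have e : NO v = fun x => (∑ i, x i * pd i v x) - ∑ i, pd i (pd i v) x := rfl
  rw [e]
  refine Differentiable.sub ?_ ?_
  · exact Differentiable.fun_sum fun i _ => Differentiable.mul
      (fun x => rad_diff_coord i x) (hv.der i).diff
  · exact Differentiable.fun_sum fun i _ => ((hv.der i).der i).diff

/-- commutation `∂_j N = N ∂_j + ∂_j` -/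
theorem pd_NO {v : E n → ℝ} (hv : TT v) (j : Fin n) (x : E n) :
    pd j (NO v) x = NO (pd j v) x + pd j v x := by
  have e : NO v = fun x => (∑ i, x i * pd i v x) - ∑ i, pd i (pd i v) x := rfl
  rw [e, rpd_sub, rpd_sum, rpd_sum]
  · have h1 : ∀ i : Fin n, pd j (fun y : E n => y i * pd i v y) x =
        (if i = j then pd i v x else 0) + x i * pd i (pd j v) x := by
      intro i
      rw [rpd_mul (rad_diff_coord i x) ((hv.der i).diff x), rpd_coord, pd_comm hv j i]
      split_ifs <;> simp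
    have h2 : ∀ i : Fin n, pd j (pd i (pd i v)) x = pd i (pd i (pd j v)) x := by
      intro i
      rw [pd_comm (hv.der i) j i x]
      have : pd j (pd i v) = pd i (pd j v) := funext fun y => pd_comm hv j i y
      rw [this]
    rw [Finset.sum_congr rfl fun i _ => h1 i, Finset.sum_congr rfl fun i _ => h2 i,
      Finset.sum_add_distrib, Finset.sum_ite_eq' Finset.univ j]
    simp only [Finset.mem_univ, if_true]
    unfold NO
    ring
  · exact fun i _ => ((hv.der i).der i).diff x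
  · exact fun i _ => DifferentiableAt.mul (rad_diff_coord i x) ((hv.der i).diff x)
  · exact DifferentiableAt.fun_sum fun i _ => DifferentiableAt.mul (rad_diff_coord i x) ((hv.der i).diff x)
  · exact DifferentiableAt.fun_sum fun i _ => ((hv.der i).der i).diff x

/-- `E (Nv)² = E |∇v|² + E |D²v|²` -/
theorem Ex_NO_sq {v : E n → ℝ} (hv : TT v) :
    Ex Q (fun x => NO v x ^ 2) = Ex Q (fun x => ∑ i, pd i v x ^ 2)
      + Ex Q (fun x => ∑ j, ∑ i, pd i (pd j v) x ^ 2) := by
  have gN' : ∀ j, Gr (pd j (NO v)) := by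
    intro j
    have e : pd j (NO v) = fun x => NO (pd j v) x + pd j v x := funext fun x => pd_NO hv j x
    rw [e]
    exact (hv.der j).gr_NO.add (hv.der j).gr
  have h1 : Ex Q (fun x => NO v x ^ 2) = Ex Q (fun x => ∑ j, pd j (NO v) x * pd j v x) := by
    rw [← Ex_mul_NO (NO_diff hv) hv.gr_NO gN' hv]
    congr 1
    funext x
    ring
  have h2 : ∀ j, Ex Q (fun x => pd j v x * NO (pd j v) x) =
      Ex Q (fun x => ∑ i, pd i (pd j v) x * pd i (pd j v) x) := fun j =>
    Ex_mul_NO (hv.der j).diff (hv.der j).gr (fun i => ((hv.der j).der i).gr) (hv.der j)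
  have g1 : ∀ j, Gr fun x => pd j v x ^ 2 := fun j => (hv.der j).gr.pow 2
  have g2 : ∀ j, Gr fun x => pd j v x * NO (pd j v) x := fun j => (hv.der j).gr.mul (hv.der j).gr_NO
  have g3 : ∀ j : Fin n, Gr fun x => ∑ i, pd i (pd j v) x ^ 2 := fun j =>
    Gr.sum _ fun i _ => ((hv.der j).der i).gr.pow 2
  rw [h1, Ex_sum _ fun j _ => g1 j, Ex_sum _ fun j _ => g3 j]
  have h3 : (fun x : E n => ∑ j, pd j (NO v) x * pd j v x) =
      fun x => (∑ j, pd j v x * NO (pd j v) x) + ∑ j, pd j v x ^ 2 := by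
    funext x
    rw [← Finset.sum_add_distrib]
    refine Finset.sum_congr rfl fun j _ => ?_
    rw [pd_NO hv]
    ring
  rw [h3, Ex_add (Gr.sum _ fun j _ => g2 j) (Gr.sum _ fun j _ => g1 j), Ex_sum _ fun j _ => g2 j,
    Ex_sum _ fun j _ => g1 j, Finset.sum_congr rfl fun j _ => h2 j, add_comm]
  congr 1
  refine Finset.sum_congr rfl fun j _ => ?_
  congr 1
  funext x
  exact Finset.sum_congr rfl fun i _ => by ring

/-! ### trigonometric test functions -/

noncomputable def cs (ξ x : E n) : ℝ := Real.cos (inner ℝ x ξ)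
noncomputable def sn (ξ x : E n) : ℝ := Real.sin (inner ℝ x ξ)

theorem trig_bdd (m : ℕ) : (∀ y, |iteratedDeriv m Real.cos y| ≤ 1) ∧
    ∀ y, |iteratedDeriv m Real.sin y| ≤ 1 := by
  induction m with
  | zero =>
    simp only [iteratedDeriv_zero]
    exact ⟨Real.abs_cos_le_one, Real.abs_sin_le_one⟩
  | succ m ih =>
    rw [Real.iteratedDeriv_add_one_cos, Real.iteratedDeriv_add_one_sin]
    refine ⟨fun y => ?_, ih.1⟩
    rw [Pi.neg_apply, abs_neg]
    exact ih.2 y

theorem TT_comp {g : ℝ → ℝ} (hg : ContDiff ℝ ⊤ g)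
    (hb : ∀ m : ℕ, ∀ y, |iteratedDeriv m g y| ≤ 1) (ξ : E n) : TT (fun x => g (inner ℝ x ξ)) := by
  have e : (fun x : E n => g (inner ℝ x ξ)) = g ∘ (innerSL ℝ ξ) := by
    funext x
    simp [real_inner_comm]
  rw [e]
  refine ⟨hg.comp (innerSL ℝ ξ).contDiff, fun m => ⟨∏ _i : Fin m, ‖innerSL ℝ ξ‖, fun x => ?_⟩⟩
  rw [ContinuousLinearMap.iteratedFDeriv_comp_right (innerSL ℝ ξ) hg x le_top]
  refine (ContinuousMultilinearMap.norm_compContinuousLinearMap_le _ _).trans ?_
  rw [norm_iteratedFDeriv_eq_norm_iteratedDeriv, Real.norm_eq_abs]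
  exact mul_le_of_le_one_left (Finset.prod_nonneg fun _ _ => norm_nonneg _) (hb m _)

theorem TT.cs (ξ : E n) : TT (cs ξ) := TT_comp Real.contDiff_cos (fun m => (trig_bdd m).1) ξ
theorem TT.sn (ξ : E n) : TT (sn ξ) := TT_comp Real.contDiff_sin (fun m => (trig_bdd m).2) ξ

theorem hasFDerivAt_inner (ξ x : E n) :
    HasFDerivAt (fun x : E n => inner ℝ x ξ) (innerSL ℝ ξ) x := by
  have e : (fun x : E n => inner ℝ x ξ) = innerSL ℝ ξ := by
    funext x
    simp [real_inner_comm]
  rw [e]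
  exact (innerSL ℝ ξ).hasFDerivAt

theorem inner_ei (ξ : E n) (i : Fin n) : inner ℝ ξ (ei i) = ξ i := by
  simp [ei, EuclideanSpace.inner_single_right]

theorem pd_cs (ξ : E n) (i : Fin n) : pd i (cs ξ) = fun x => -(ξ i) * sn ξ x := by
  funext x
  have h := (hasFDerivAt_inner ξ x).cos
  unfold pd
  have e : cs ξ = fun x => Real.cos (inner ℝ x ξ) := rfl
  rw [e, h.fderiv]
  simp only [sn, ContinuousLinearMap.smul_apply, innerSL_apply_apply, smul_eq_mul, inner_ei]
  ring

theorem pd_sn (ξ : E n) (i : Fin n) : pd i (sn ξ) = fun x => ξ i * cs ξ x := by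
  funext x
  have h := (hasFDerivAt_inner ξ x).sin
  unfold pd
  have e : sn ξ = fun x => Real.sin (inner ℝ x ξ) := rfl
  rw [e, h.fderiv]
  simp only [cs, ContinuousLinearMap.smul_apply, innerSL_apply_apply, smul_eq_mul, inner_ei]
  ring

theorem rpd_cmul {i : Fin n} {f : E n → ℝ} {x : E n} (c : ℝ) (hf : DifferentiableAt ℝ f x) :
    pd i (fun y => c * f y) x = c * pd i f x := by
  rw [rpd_mul (differentiableAt_const c) hf, rpd_const]
  ring

theorem inner_sum (x ξ : E n) : inner ℝ x ξ = ∑ i, x i * ξ i := by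
  rw [PiLp.inner_apply]
  exact Finset.sum_congr rfl fun i _ => by simp [mul_comm]

theorem NO_cs (ξ x : E n) : NO (cs ξ) x = ‖ξ‖ ^ 2 * cs ξ x - inner ℝ x ξ * sn ξ x := by
  unfold NO
  rw [inner_sum, Finset.sum_mul, norm_sq_eq_sum, Finset.sum_mul, ← Finset.sum_sub_distrib,
    ← Finset.sum_sub_distrib]
  refine Finset.sum_congr rfl fun i _ => ?_
  rw [pd_cs, rpd_cmul _ ((TT.sn ξ).diff x), pd_sn]
  ring

theorem NO_sn (ξ x : E n) : NO (sn ξ) x = ‖ξ‖ ^ 2 * sn ξ x + inner ℝ x ξ * cs ξ x := by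
  unfold NO
  rw [inner_sum, Finset.sum_mul, norm_sq_eq_sum, Finset.sum_mul, ← Finset.sum_add_distrib,
    ← Finset.sum_sub_distrib]
  refine Finset.sum_congr rfl fun i _ => ?_
  rw [pd_sn, rpd_cmul _ ((TT.cs ξ).diff x), pd_cs]
  ring

/-! ### the ray equation -/

theorem ray {F F' : ℝ → ℝ} {k : ℝ} (hF : ∀ s, HasDerivAt F (F' s) s)
    (h : ∀ s, s ^ 2 * k * F s + s * F' s = 0) (h0 : F 0 = 0) : F 1 = 0 := by
  have hg : ∀ s, HasDerivAt (fun s => Real.exp (k * s ^ 2 / 2) * F s)
      (Real.exp (k * s ^ 2 / 2) * (k * s) * F s + Real.exp (k * s ^ 2 / 2) * F' s) s := by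
    intro s
    have h1 : HasDerivAt (fun s : ℝ => k * s ^ 2 / 2) (k * s) s := by
      have := ((hasDerivAt_pow 2 s).const_mul k).div_const 2
      refine this.congr_deriv ?_
      simp
      ring
    exact h1.exp.mul (hF s)
  obtain ⟨c, hc, hc'⟩ := exists_hasDerivAt_eq_slope
    (fun s => Real.exp (k * s ^ 2 / 2) * F s) _ zero_lt_one
    (fun s _ => (hg s).continuousAt.continuousWithinAt) (fun s _ => hg s)
  have hz : Real.exp (k * c ^ 2 / 2) * (k * c) * F c + Real.exp (k * c ^ 2 / 2) * F' c = 0 := by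
    have hc0 : c ≠ 0 := hc.1.ne'
    have e : Real.exp (k * c ^ 2 / 2) * (k * c) * F c + Real.exp (k * c ^ 2 / 2) * F' c =
        Real.exp (k * c ^ 2 / 2) / c * (c ^ 2 * k * F c + c * F' c) := by
      field_simp
    rw [e, h c, mul_zero]
  rw [hz, h0] at hc'
  have h2 : Real.exp (k * 1 ^ 2 / 2) * F 1 = 0 := by
    have := hc'
    rw [eq_comm, div_eq_zero_iff] at this
    rcases this with h | h
    · linarith
    · norm_num at h
  rcases mul_eq_zero.1 h2 with h | h
  · exact absurd h (Real.exp_pos _).ne'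
  · exact h

theorem memLp_gr {f : E n → ℝ} (hf : Gr f) : MemLp f 2 (gm n) := by
  rw [memLp_two_iff_integrable_sq (hf.cont.aestronglyMeasurable)]
  exact integrable_gm (regQ.integrable_gr (hf.pow 2))

theorem gr_inner (ξ : E n) : Gr fun x : E n => (inner ℝ x ξ : ℝ) := by
  have e : (fun x : E n => (inner ℝ x ξ : ℝ)) = fun x => ∑ i, x i * ξ i := funext fun x => inner_sum x ξ
  rw [e]
  exact Gr.sum _ fun i _ => (Gr.coord i).mul (Gr.const _)

section ray

variable {f : E n → ℝ} (hf : MemLp f 2 (gm n))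
include hf

theorem int_mul_gr {g : E n → ℝ} (hg : Gr g) : Integrable (fun x => f x * g x) (gm n) :=
  hf.integrable_mul (memLp_gr hg)

theorem deriv_cos (ξ : E n) (s : ℝ) :
    HasDerivAt (fun s => ∫ x, f x * Real.cos (s * inner ℝ x ξ) ∂(gm n))
      (∫ x, f x * (-Real.sin (s * inner ℝ x ξ) * inner ℝ x ξ) ∂(gm n)) s := by
  have hm : ∀ s : ℝ, AEStronglyMeasurable (fun x => f x * Real.cos (s * inner ℝ x ξ)) (gm n) :=
    fun s => hf.1.mul (by fun_prop)
  refine (hasDerivAt_integral_of_dominated_loc_of_deriv_le (μ := gm n) (s := Set.univ)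
    (F := fun s x => f x * Real.cos (s * inner ℝ x ξ))
    (F' := fun s x => f x * (-Real.sin (s * inner ℝ x ξ) * inner ℝ x ξ))
    (bound := fun x => |f x * inner ℝ x ξ|)
    Filter.univ_mem (Filter.Eventually.of_forall hm) ?_ ?_ ?_ ?_ ?_).2
  · refine int_mul_gr hf (Gr.of_bound (by fun_prop) (B := 1) fun x => Real.abs_cos_le_one _)
  · exact hf.1.mul (by fun_prop)
  · refine Filter.Eventually.of_forall fun x s _ => ?_
    rw [Real.norm_eq_abs, abs_mul, abs_mul, abs_neg, abs_mul]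
    have := Real.abs_sin_le_one (s * inner ℝ x ξ)
    have h1 : |Real.sin (s * inner ℝ x ξ)| * |(inner ℝ x ξ : ℝ)| ≤ |(inner ℝ x ξ : ℝ)| :=
      mul_le_of_le_one_left (abs_nonneg _) this
    exact mul_le_mul_of_nonneg_left h1 (abs_nonneg _)
  · exact (int_mul_gr hf (gr_inner ξ)).abs
  · refine Filter.Eventually.of_forall fun x s _ => ?_
    have h1 : HasDerivAt (fun s : ℝ => s * (inner ℝ x ξ : ℝ)) (inner ℝ x ξ) s := by
      simpa using (hasDerivAt_id s).mul_const (inner ℝ x ξ : ℝ)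
    exact h1.cos.const_mul (f x)

theorem deriv_sin (ξ : E n) (s : ℝ) :
    HasDerivAt (fun s => ∫ x, f x * Real.sin (s * inner ℝ x ξ) ∂(gm n))
      (∫ x, f x * (Real.cos (s * inner ℝ x ξ) * inner ℝ x ξ) ∂(gm n)) s := by
  have hm : ∀ s : ℝ, AEStronglyMeasurable (fun x => f x * Real.sin (s * inner ℝ x ξ)) (gm n) :=
    fun s => hf.1.mul (by fun_prop)
  refine (hasDerivAt_integral_of_dominated_loc_of_deriv_le (μ := gm n) (s := Set.univ)
    (F := fun s x => f x * Real.sin (s * inner ℝ x ξ))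
    (F' := fun s x => f x * (Real.cos (s * inner ℝ x ξ) * inner ℝ x ξ))
    (bound := fun x => |f x * inner ℝ x ξ|)
    Filter.univ_mem (Filter.Eventually.of_forall hm) ?_ ?_ ?_ ?_ ?_).2
  · refine int_mul_gr hf (Gr.of_bound (by fun_prop) (B := 1) fun x => Real.abs_sin_le_one _)
  · exact hf.1.mul (by fun_prop)
  · refine Filter.Eventually.of_forall fun x s _ => ?_
    rw [Real.norm_eq_abs, abs_mul, abs_mul, abs_mul]
    have := Real.abs_cos_le_one (s * inner ℝ x ξ)
    have h1 : |Real.cos (s * inner ℝ x ξ)| * |(inner ℝ x ξ : ℝ)| ≤ |(inner ℝ x ξ : ℝ)| :=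
      mul_le_of_le_one_left (abs_nonneg _) this
    exact mul_le_mul_of_nonneg_left h1 (abs_nonneg _)
  · exact (int_mul_gr hf (gr_inner ξ)).abs
  · refine Filter.Eventually.of_forall fun x s _ => ?_
    have h1 : HasDerivAt (fun s : ℝ => s * (inner ℝ x ξ : ℝ)) (inner ℝ x ξ) s := by
      simpa using (hasDerivAt_id s).mul_const (inner ℝ x ξ : ℝ)
    exact h1.sin.const_mul (f x)

/-- a function orthogonal to the constants and to all `N cos`, `N sin` vanishes -/
theorem ae_zero (h0 : ∫ x, f x ∂(gm n) = 0) (hc : ∀ ξ, ∫ x, f x * NO (cs ξ) x ∂(gm n) = 0)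
    (hs : ∀ ξ, ∫ x, f x * NO (sn ξ) x ∂(gm n) = 0) : f =ᵐ[gm n] 0 := by
  have gc : ∀ (s : ℝ) (ξ : E n), Gr fun x : E n => Real.cos (s * inner ℝ x ξ) := fun s ξ =>
    Gr.of_bound (by fun_prop) (B := 1) fun x => Real.abs_cos_le_one _
  have gs : ∀ (s : ℝ) (ξ : E n), Gr fun x : E n => Real.sin (s * inner ℝ x ξ) := fun s ξ =>
    Gr.of_bound (by fun_prop) (B := 1) fun x => Real.abs_sin_le_one _
  refine ae_zero_of_cos_sin (hf.integrable (by norm_num)) (fun ξ => ?_) fun ξ => ?_
  · have key := ray (k := ‖ξ‖ ^ 2) (fun s => deriv_cos hf ξ s) (fun s => ?_) ?_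
    · simpa using key
    · have h1 := hc (s • ξ)
      have e : ∀ x, f x * NO (cs (s • ξ)) x = s ^ 2 * ‖ξ‖ ^ 2 * (f x * Real.cos (s * inner ℝ x ξ))
          + s * (f x * (-Real.sin (s * inner ℝ x ξ) * inner ℝ x ξ)) := by
        intro x
        rw [NO_cs]
        simp only [cs, sn, inner_smul_right, norm_smul, Real.norm_eq_abs, mul_pow, sq_abs]
        ring
      rw [integral_congr_ae (Filter.Eventually.of_forall e), integral_add, integral_const_mul,
        integral_const_mul] at h1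
      · exact h1
      · exact (int_mul_gr hf (gc s ξ)).const_mul _
      · refine (int_mul_gr hf (((gs s ξ).neg).mul (gr_inner ξ))).const_mul _
    · simp only [zero_mul, Real.cos_zero, mul_one]
      exact h0
  · have key := ray (k := ‖ξ‖ ^ 2) (fun s => deriv_sin hf ξ s) (fun s => ?_) ?_
    · simpa using key
    · have h1 := hs (s • ξ)
      have e : ∀ x, f x * NO (sn (s • ξ)) x = s ^ 2 * ‖ξ‖ ^ 2 * (f x * Real.sin (s * inner ℝ x ξ))
          + s * (f x * (Real.cos (s * inner ℝ x ξ) * inner ℝ x ξ)) := by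
        intro x
        rw [NO_sn]
        simp only [cs, sn, inner_smul_right, norm_smul, Real.norm_eq_abs, mul_pow, sq_abs]
        ring
      rw [integral_congr_ae (Filter.Eventually.of_forall e), integral_add, integral_const_mul,
        integral_const_mul] at h1
      · exact h1
      · exact (int_mul_gr hf (gs s ξ)).const_mul _
      · refine (int_mul_gr hf ((gc s ξ).mul (gr_inner ξ))).const_mul _
    · simp

end ray

/-! ### density -/

theorem NO_add {v w : E n → ℝ} (hv : TT v) (hw : TT w) (x : E n) :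
    NO (fun x => v x + w x) x = NO v x + NO w x := by
  have h1 : ∀ i, pd i (fun x => v x + w x) = fun x => pd i v x + pd i w x := fun i =>
    funext fun x => rpd_add (hv.diff x) (hw.diff x)
  unfold NO
  have h2 : ∀ i, pd i (pd i fun x => v x + w x) x = pd i (pd i v) x + pd i (pd i w) x := by
    intro i
    rw [h1, rpd_add ((hv.der i).diff x) ((hw.der i).diff x)]
  rw [Finset.sum_congr rfl fun i _ => h2 i]
  simp only [h1, mul_add, Finset.sum_add_distrib]
  ring

theorem NO_cmul {v : E n → ℝ} (hv : TT v) (c : ℝ) (x : E n) :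
    NO (fun x => c * v x) x = c * NO v x := by
  have h1 : ∀ i, pd i (fun x => c * v x) = fun x => c * pd i v x := fun i =>
    funext fun x => rpd_cmul c (hv.diff x)
  unfold NO
  have h2 : ∀ i, pd i (pd i fun x => c * v x) x = c * pd i (pd i v) x := by
    intro i
    rw [h1, rpd_cmul c ((hv.der i).diff x)]
  rw [Finset.sum_congr rfl fun i _ => h2 i, mul_sub, Finset.mul_sum, Finset.mul_sum]
  congr 1
  exact Finset.sum_congr rfl fun i _ => by rw [h1]; ring

theorem NO_zero (x : E n) : NO (fun _ : E n => (0 : ℝ)) x = 0 := by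
  unfold NO
  have h1 : ∀ i : Fin n, pd i (fun _ : E n => (0 : ℝ)) = fun _ => 0 := fun i =>
    funext fun x => rpd_const i 0 x
  simp [h1]

theorem memLp_NO {v : E n → ℝ} (hv : TT v) : MemLp (NO v) 2 (gm n) := memLp_gr hv.gr_NO

/-- the closed subspace generated by `Nv + c` -/
def KK (n : ℕ) : Submodule ℝ (Lp ℝ 2 (gm n)) where
  carrier := {g | ∃ v, TT v ∧ ∃ c : ℝ, (g : E n → ℝ) =ᵐ[gm n] fun x => NO v x + c}
  add_mem' := by
    rintro a b ⟨v, hv, c, h1⟩ ⟨w, hw, d, h2⟩
    refine ⟨_, hv.add hw, c + d, ?_⟩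
    filter_upwards [h1, h2, Lp.coeFn_add a b] with x e1 e2 e3
    rw [e3, Pi.add_apply, e1, e2, NO_add hv hw]
    ring
  zero_mem' := by
    refine ⟨_, TT.zero, 0, ?_⟩
    filter_upwards [Lp.coeFn_zero ℝ 2 (gm n)] with x e
    rw [e, NO_zero]
    simp
  smul_mem' := by
    rintro r a ⟨v, hv, c, h1⟩
    refine ⟨_, hv.smul r, r * c, ?_⟩
    filter_upwards [h1, Lp.coeFn_smul r a] with x e1 e2
    rw [e2, Pi.smul_apply, e1, NO_cmul hv, smul_eq_mul]
    ring

theorem KK_orth : (KK n)ᗮ = ⊥ := by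
  rw [Submodule.eq_bot_iff]
  intro g hg
  have hm : MemLp (g : E n → ℝ) 2 (gm n) := Lp.memLp g
  have key : ∀ v, TT v → ∀ c : ℝ, ∫ x, g x * (NO v x + c) ∂(gm n) = 0 := by
    intro v hv c
    have hmem : MemLp (fun x => NO v x + c) 2 (gm n) := memLp_gr (hv.gr_NO.add (Gr.const c))
    have h1 := (Submodule.mem_orthogonal _ _).1 hg (hmem.toLp _)
      ⟨v, hv, c, hmem.coeFn_toLp⟩
    rw [L2.inner_def] at h1
    rw [← h1]
    refine integral_congr_ae ?_
    filter_upwards [hmem.coeFn_toLp] with x hx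
    rw [hx]
    simp
  have h0 : ∫ x, g x ∂(gm n) = 0 := by
    have := key _ TT.zero 1
    simpa [NO_zero] using this
  have hN : ∀ v, TT v → ∫ x, g x * NO v x ∂(gm n) = 0 := by
    intro v hv
    simpa using key v hv 0
  have hz := ae_zero hm h0 (fun ξ => hN _ (TT.cs ξ)) fun ξ => hN _ (TT.sn ξ)
  exact Lp.eq_zero_iff_ae_eq_zero.2 hz

theorem KK_dense : (KK n).topologicalClosure = ⊤ :=
  Submodule.topologicalClosure_eq_top_iff.2 KK_orth

theorem Ex_NO {v : E n → ℝ} (hv : TT v) : Ex Q (NO v) = 0 := by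
  have h := Ex_mul_NO (f := fun _ : E n => (1 : ℝ)) (v := v) (differentiable_const _) (Gr.const _)
    (fun i => by
      have e : pd i (fun _ : E n => (1 : ℝ)) = fun _ => 0 := funext fun x => rpd_const i 1 x
      rw [e]
      exact Gr.const _) hv
  have e : ∀ i : Fin n, pd i (fun _ : E n => (1 : ℝ)) = fun _ => 0 := fun i =>
    funext fun x => rpd_const i 1 x
  simp only [one_mul, e, zero_mul, Finset.sum_const_zero] at h
  have h2 : Ex Q (fun _ : E n => (0 : ℝ)) = 0 := by
    unfold Ex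
    simp
  rw [h2] at h
  exact h

/-- **SP-L2** density: every `f ∈ L²` of mean zero is a limit of `Nv`, `v ∈ TT` -/
theorem exists_near {f : E n → ℝ} (hf : MemLp f 2 (gm n)) (h0 : ∫ x, f x ∂(gm n) = 0) {ε : ℝ}
    (hε : 0 < ε) : ∃ v, TT v ∧ ∫ x, (f x - NO v x) ^ 2 ∂(gm n) < ε := by
  have hcl : hf.toLp f ∈ (KK n).topologicalClosure := by
    rw [KK_dense]
    trivial
  rw [← SetLike.mem_coe, Submodule.topologicalClosure_coe, Metric.mem_closure_iff] at hcl
  obtain ⟨g, ⟨v, hv, c, hg⟩, hd⟩ := hcl (Real.sqrt ε) (Real.sqrt_pos.2 hε)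
  refine ⟨v, hv, ?_⟩
  have hm : MemLp (fun x => f x - (NO v x + c)) 2 (gm n) :=
    hf.sub (memLp_gr (hv.gr_NO.add (Gr.const c)))
  have h1 : ∫ x, (f x - (NO v x + c)) ^ 2 ∂(gm n) < ε := by
    have h2 : ‖hf.toLp f - g‖ ^ 2 = ∫ x, (f x - (NO v x + c)) ^ 2 ∂(gm n) := by
      rw [← real_inner_self_eq_norm_sq, L2.inner_def]
      refine integral_congr_ae ?_
      filter_upwards [hg, hf.coeFn_toLp, Lp.coeFn_sub (hf.toLp f) g] with x e1 e2 e3
      rw [e3, Pi.sub_apply, e1, e2]
      simp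
    rw [← h2]
    rw [dist_eq_norm] at hd
    calc ‖hf.toLp f - g‖ ^ 2 < Real.sqrt ε ^ 2 :=
          pow_lt_pow_left₀ hd (norm_nonneg _) (by norm_num)
      _ = ε := Real.sq_sqrt hε.le
  have hmN : MemLp (fun x => f x - NO v x) 2 (gm n) := hf.sub (memLp_NO hv)
  have hi2 : Integrable (fun x => (f x - NO v x) ^ 2) (gm n) :=
    (memLp_two_iff_integrable_sq hmN.1).1 hmN
  have hi1 : Integrable (fun x => f x - NO v x) (gm n) := hmN.integrable (by norm_num)
  have h3 : ∫ x, (f x - (NO v x + c)) ^ 2 ∂(gm n) = ∫ x, (f x - NO v x) ^ 2 ∂(gm n) + c ^ 2 := by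
    have e : ∀ x, (f x - (NO v x + c)) ^ 2 =
        ((f x - NO v x) ^ 2 + (-2 * c) * (f x - NO v x)) + c ^ 2 := fun x => by ring
    simp only [e]
    have b0 : Integrable (fun x => (-2 * c) * (f x - NO v x)) (gm n) := hi1.const_mul _
    have b1 : Integrable (fun x => (f x - NO v x) ^ 2 + (-2 * c) * (f x - NO v x)) (gm n) :=
      hi2.add b0
    rw [integral_add b1 (integrable_const _),
      integral_add hi2 b0, integral_const_mul,
      integral_sub (hf.integrable (by norm_num)) ((memLp_NO hv).integrable (by norm_num)), h0]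
    have h4 : ∫ x, NO v x ∂(gm n) = 0 := by
      rw [← Ex_eq]
      exact Ex_NO hv
    rw [h4]
    simp
  nlinarith [sq_nonneg c]

/-- **DUAL**, sup form, for every `f` of polynomial growth satisfying the integration by parts
`E f Nv = E ⟨∇f, ∇v⟩` against test functions -/
theorem dual_sup_of {f : E n → ℝ} (hf : MemLp f 2 (gm n))
    (hibp : ∀ v, TT v → Ex Q (fun x => f x * NO v x) = Ex Q (fun x => ∑ i, pd i f x * pd i v x))
    {C : ℝ} (h : ∀ v, TT v → 2 * Ex Q (fun x => ∑ i, pd i f x * pd i v x)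
      - Ex Q (fun x => ∑ i, pd i v x ^ 2) - Ex Q (fun x => ∑ j, ∑ i, pd i (pd j v) x ^ 2) ≤ C) :
    Ex Q (fun x => f x ^ 2) - (Ex Q f) ^ 2 ≤ C := by
  refine le_of_forall_pos_lt_add fun ε hε => ?_
  set m : ℝ := Ex Q f with hm
  have hfm : MemLp (fun x => f x - m) 2 (gm n) := hf.sub (memLp_const m)
  have hi : Integrable f (gm n) := hf.integrable (by norm_num)
  have h0 : ∫ x, (f x - m) ∂(gm n) = 0 := by
    rw [integral_sub hi (integrable_const _), ← Ex_eq]
    simp [hm]
  obtain ⟨v, hv, hv2⟩ := exists_near hfm h0 hε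
  have h1 := h v hv
  rw [← hibp v hv, sub_sub, ← Ex_NO_sq hv] at h1
  have hi2 : Integrable (fun x => f x ^ 2) (gm n) := (memLp_two_iff_integrable_sq hf.1).1 hf
  have hN2 : Integrable (fun x => NO v x ^ 2) (gm n) :=
    (memLp_two_iff_integrable_sq (memLp_NO hv).1).1 (memLp_NO hv)
  have hfN : Integrable (fun x => f x * NO v x) (gm n) := int_mul_gr hf hv.gr_NO
  have hN : Integrable (NO v) (gm n) := (memLp_NO hv).integrable (by norm_num)
  have e : ∫ x, (f x - m - NO v x) ^ 2 ∂(gm n) =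
      Ex Q (fun x => f x ^ 2) - m ^ 2 - (2 * Ex Q (fun x => f x * NO v x)
        - Ex Q (fun x => NO v x ^ 2)) := by
    have e1 : ∀ x, (f x - m - NO v x) ^ 2 = (((f x ^ 2 + (-2 * m) * f x) + m ^ 2)
        + ((-2) * (f x * NO v x) + NO v x ^ 2)) + (2 * m) * NO v x := fun x => by ring
    simp only [e1]
    have a1 : Integrable (fun x => f x ^ 2 + (-2 * m) * f x) (gm n) := hi2.add (hi.const_mul _)
    have a2 : Integrable (fun x => f x ^ 2 + (-2 * m) * f x + m ^ 2) (gm n) :=
      a1.add (integrable_const _)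
    have a3 : Integrable (fun x => (-2) * (f x * NO v x) + NO v x ^ 2) (gm n) :=
      (hfN.const_mul _).add hN2
    have a4 : Integrable (fun x => f x ^ 2 + (-2 * m) * f x + m ^ 2
        + ((-2) * (f x * NO v x) + NO v x ^ 2)) (gm n) := a2.add a3
    rw [integral_add a4 (hN.const_mul _), integral_add a2 a3,
      integral_add a1 (integrable_const _), integral_add hi2 (hi.const_mul _),
      integral_add (hfN.const_mul _) hN2, integral_const_mul, integral_const_mul,
      integral_const_mul, integral_const]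
    have hN0 : ∫ x, NO v x ∂(gm n) = 0 := by
      rw [← Ex_eq]
      exact Ex_NO hv
    rw [hN0, ← Ex_eq, ← Ex_eq, ← Ex_eq, ← Ex_eq, ← hm]
    simp
    ring
  rw [e] at hv2
  linarith

/-- **DUAL**, sup form (`f` of class `C¹`, polynomial growth) -/
theorem dual_sup {f : E n → ℝ} (hf : Differentiable ℝ f) (gf : Gr f) (gf' : ∀ i, Gr (pd i f))
    {C : ℝ} (h : ∀ v, TT v → 2 * Ex Q (fun x => ∑ i, pd i f x * pd i v x)
      - Ex Q (fun x => ∑ i, pd i v x ^ 2) - Ex Q (fun x => ∑ j, ∑ i, pd i (pd j v) x ^ 2) ≤ C) :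
    Ex Q (fun x => f x ^ 2) - (Ex Q f) ^ 2 ≤ C :=
  dual_sup_of (memLp_gr gf) (fun _ hv => Ex_mul_NO hf gf gf' hv) h

end Vale.Agent.P254.H731
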