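import Vale.Agent.P254.SP.IfaceB
import Vale.Agent.P254.H731.Dens

/-! P254, (SP_0) line (helper731): `StmtDual` of `SP/IfaceB.lean` from the density of `{Nv}`. -/

set_option autoImplicit false
set_option linter.unusedSectionVars false

open MeasureTheory Vale.Agent.P227.M Vale.Agent.P254.S Vale.Agent.P254.SP
open scoped Topology ENNReal

namespace Vale.Agent.P254.H731

open S151

variable {n : ℕ}

theorem norm_fderiv_le_of_pd {f : E n → ℝ} {K : ℝ} {x : E n} (hK : ∀ i, |pd i f x| ≤ K) :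
    ‖fderiv ℝ f x‖ ≤ n * K := by
  have hK0 : 0 ≤ (n : ℝ) * K := by
    rcases Nat.eq_zero_or_pos n with h | h
    · subst h
      simp
    · exact mul_nonneg (Nat.cast_nonneg n) ((abs_nonneg _).trans (hK ⟨0, h⟩))
  refine ContinuousLinearMap.opNorm_le_bound _ hK0 fun v => ?_
  rw [Vale.Agent.P227.M.fderiv_eq_sum, Real.norm_eq_abs]
  calc |∑ i, v i * pd i f x| ≤ ∑ i, |v i * pd i f x| := Finset.abs_sum_le_sum_abs _ _
    _ ≤ ∑ _i : Fin n, ‖v‖ * K := by
      refine Finset.sum_le_sum fun i _ => ?_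
      rw [abs_mul]
      exact mul_le_mul (abs_coord_le v i) (hK i) (abs_nonneg _) (norm_nonneg _)
    _ = n * K * ‖v‖ := by
      rw [Finset.sum_const, Finset.card_univ, Fintype.card_fin, nsmul_eq_mul]
      ring

theorem gr_of_grad {f : E n → ℝ} (hf : Differentiable ℝ f) {K : ℝ}
    (hK : ∀ i z, |pd i f z| ≤ K) : Gr f := by
  have hb : ∀ x, ‖fderiv ℝ f x‖ ≤ n * K := fun x => norm_fderiv_le_of_pd fun i => hK i x
  refine ⟨hf.continuous, |f 0| + |(n : ℝ) * K|, 1, by positivity, fun x => ?_⟩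
  have h1 : ‖f x - f 0‖ ≤ (n * K) * ‖x - 0‖ :=
    Convex.norm_image_sub_le_of_norm_fderiv_le (𝕜 := ℝ) (s := Set.univ)
      (fun y _ => hf y) (fun y _ => hb y) convex_univ (Set.mem_univ _) (Set.mem_univ _)
  rw [sub_zero, Real.norm_eq_abs] at h1
  have h2 : |f x| ≤ |f 0| + (n * K) * ‖x‖ := by
    calc |f x| = |f 0 + (f x - f 0)| := by ring_nf
      _ ≤ |f 0| + |f x - f 0| := abs_add_le _ _
      _ ≤ _ := by linarith
  have h3 : (n * K) * ‖x‖ ≤ |(n : ℝ) * K| * ‖x‖ :=
    mul_le_mul_of_nonneg_right (le_abs_self _) (norm_nonneg _)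
  rw [pow_one]
  have h4 : 0 ≤ |f 0| * ‖x‖ := by positivity
  have h5 : 0 ≤ |(n : ℝ) * K| := abs_nonneg _
  nlinarith

theorem stmtDual : StmtDual := by
  intro n f K C hf _ hb h
  refine dual_sup (hf.differentiable (by norm_num)) (gr_of_grad (hf.differentiable (by norm_num)) hb)
    (fun i => Gr.of_bound (contDiff_pd hf (by norm_num : (0 : WithTop ℕ∞) + 1 ≤ 1) i).continuous
      (hb i)) fun v hv => ?_
  have h1 := h v hv.smooth fun k _ => hv.bdd k
  have e : (fun x : E n => ∑ j, ∑ i, pd i (pd j v) x ^ 2) =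
      fun x => ∑ a, ∑ i, pd a (pd i v) x ^ 2 := funext fun x => Finset.sum_comm
  rw [e]
  exact h1

end Vale.Agent.P254.H731
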